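import Vale.Agent.P032.Wrap
import Vale.Agent.P032.OpenFin

namespace Vale.Agent.Results.P032.ChiGeSix

/-- The unit-distance graph of the Euclidean plane. -/
def unitDistanceGraph : SimpleGraph (EuclideanSpace ℝ (Fin 2)) where
  Adj x y := ‖x - y‖ = 1
  symm := ⟨fun x y h => by rwa [norm_sub_rev]⟩
  loopless := ⟨fun x h => by simp at h⟩

theorem result :
    (∀ c : EuclideanSpace ℝ (Fin 2) → Fin 5, ∃ x y, ‖x - y‖ = 1 ∧ c x = c y) ∧
      6 ≤ unitDistanceGraph.chromaticNumber :=
  ⟨Vale.Agent.P032.exists_pair_of_open Vale.Agent.P032.no_open,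
    Vale.Agent.P032.six_le_of_pair unitDistanceGraph (fun _ _ => Iff.rfl)
      (Vale.Agent.P032.exists_pair_of_open Vale.Agent.P032.no_open)⟩

end Vale.Agent.Results.P032.ChiGeSix
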