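import Vale.Agent.P032.Wrap
import Vale.Agent.P032.OpenFin

namespace Vale.Agent.Results.P032.Six

theorem result :
    (∀ c : EuclideanSpace ℝ (Fin 2) → Fin 5, ∃ x y, ‖x - y‖ = 1 ∧ c x = c y) ∧
      6 ≤ (SimpleGraph.fromRel
        fun x y : EuclideanSpace ℝ (Fin 2) => ‖x - y‖ = 1).chromaticNumber := by
  have H := Vale.Agent.P032.exists_pair_of_open Vale.Agent.P032.no_open
  refine ⟨H, Vale.Agent.P032.six_le_of_pair _ (fun x y => ?_) H⟩
  rw [SimpleGraph.fromRel_adj, norm_sub_rev y x, or_self]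
  refine ⟨fun h => h.2, fun h => ⟨?_, h⟩⟩
  rintro rfl
  simp at h

end Vale.Agent.Results.P032.Six
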