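import Vale.Agent.P032.Transfer

namespace Vale.Agent.Results.P032.Transfer

open MeasureTheory

theorem result (k : ℕ) (c : ℂ → Fin k) (hc : ∀ x y : ℂ, ‖x - y‖ = 1 → c x ≠ c y) :
    ∃ A : Fin k → Set ℂ, (∀ i, MeasurableSet (A i)) ∧ (∀ᵐ x : ℂ, ∃ i, x ∈ A i) ∧
      ∀ i, ∀ᵐ x : ℂ, ∀ᵐ t : ℝ, ¬ (x ∈ A i ∧ x + Complex.exp (t * Complex.I) ∈ A i) :=
  Vale.Agent.P032.weak_of_proper c fun x y h => hc x y (by rwa [← dist_eq_norm])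

end Vale.Agent.Results.P032.Transfer
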